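import Vale.Agent.P245.H887.Steep

/-!
P245 (helper882): a Poincaré inequality implies a logarithmic Sobolev inequality for all
functions, in which a logarithmic weight `log (f² / ∫ f²)` is paid only at points where `f` is
high and steep.
-/

open MeasureTheory Filter Topology
open scoped ContDiff

namespace Vale.Agent.P245.H882

open H887

noncomputable def hh (s : ℝ) : ℝ := √(1 + Real.log (1 + s ^ 2))

noncomputable def Ps (s : ℝ) : ℝ := s * hh s * Real.smoothTransition (s ^ 2 - 4)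

theorem log_nn (s : ℝ) : 0 ≤ Real.log (1 + s ^ 2) :=
  Real.log_nonneg (by nlinarith [sq_nonneg s])

theorem hh_sq (s : ℝ) : hh s ^ 2 = 1 + Real.log (1 + s ^ 2) :=
  Real.sq_sqrt (by have := log_nn s; linarith)

theorem one_le_hh (s : ℝ) : 1 ≤ hh s := by
  unfold hh
  exact Real.one_le_sqrt.mpr (by have := log_nn s; linarith)

theorem hh_cd : ContDiff ℝ ∞ hh := by
  have h1 : ContDiff ℝ ∞ fun s : ℝ => 1 + s ^ 2 := by fun_prop
  have h2 : ContDiff ℝ ∞ fun s : ℝ => Real.log (1 + s ^ 2) :=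
    h1.log fun s => by positivity
  have h3 : ContDiff ℝ ∞ fun s : ℝ => 1 + Real.log (1 + s ^ 2) := contDiff_const.add h2
  exact h3.sqrt fun s => by have := log_nn s; linarith

theorem Ps_cd : ContDiff ℝ ∞ Ps := by
  have h1 : ContDiff ℝ ∞ fun y : ℝ => y ^ 2 - 4 := by fun_prop
  have h2 : ContDiff ℝ ∞ fun y : ℝ => Real.smoothTransition (y ^ 2 - 4) :=
    Real.smoothTransition.contDiff.comp h1
  exact (contDiff_id.mul hh_cd).mul h2

theorem Ps_small {s : ℝ} (hs : s ^ 2 ≤ 4) : Ps s = 0 := by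
  unfold Ps
  rw [Real.smoothTransition.zero_of_nonpos (by linarith)]
  simp

theorem Ps_big {s : ℝ} (hs : 5 ≤ s ^ 2) : Ps s = s * hh s := by
  unfold Ps
  rw [Real.smoothTransition.one_of_one_le (by linarith)]
  ring

theorem Ps_even (s : ℝ) : Ps s ^ 2 = Ps |s| ^ 2 := by
  unfold Ps hh
  rw [sq_abs, mul_pow, mul_pow, mul_pow, mul_pow, sq_abs]

theorem deriv_Ps {s : ℝ} (hs : 5 < s ^ 2) :
    deriv Ps s = hh s + s ^ 2 / ((1 + s ^ 2) * hh s) := by
  have h1 : Ps =ᶠ[𝓝 s] fun z => z * hh z := by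
    have h2 : ∀ᶠ z in 𝓝 s, 5 < z ^ 2 := by
      have : ContinuousAt (fun z : ℝ => z ^ 2) s := by fun_prop
      exact this.eventually (lt_mem_nhds hs)
    filter_upwards [h2] with z hz
    exact Ps_big hz.le
  rw [h1.deriv_eq]
  have h3 : HasDerivAt (fun z : ℝ => 1 + z ^ 2) (2 * s) s := by
    have := (hasDerivAt_pow 2 s).const_add 1
    simpa using this
  have h4 : HasDerivAt (fun z : ℝ => Real.log (1 + z ^ 2)) (2 * s / (1 + s ^ 2)) s :=
    h3.log (by positivity)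
  have h5 : HasDerivAt (fun z : ℝ => 1 + Real.log (1 + z ^ 2)) (2 * s / (1 + s ^ 2)) s :=
    h4.const_add 1
  have h6 : HasDerivAt hh (2 * s / (1 + s ^ 2) / (2 * √(1 + Real.log (1 + s ^ 2)))) s :=
    h5.sqrt (by have := log_nn s; linarith)
  have h7 := (hasDerivAt_id s).mul h6
  have h8 : deriv (fun z => z * hh z) s =
      1 * hh s + s * (2 * s / (1 + s ^ 2) / (2 * √(1 + Real.log (1 + s ^ 2)))) := h7.deriv
  rw [h8]
  have h9 : √(1 + Real.log (1 + s ^ 2)) = hh s := rfl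
  rw [h9]
  have h10 : 0 < hh s := by have := one_le_hh s; linarith
  field_simp

theorem deriv_le {s : ℝ} (hs : 5 < s ^ 2) : 0 ≤ deriv Ps s ∧ deriv Ps s ≤ 2 * hh s := by
  rw [deriv_Ps hs]
  have h1 := one_le_hh s
  have h2 : 0 < hh s := by linarith
  have h3 : s ^ 2 / ((1 + s ^ 2) * hh s) ≤ 1 := by
    rw [div_le_one (by positivity)]
    nlinarith [sq_nonneg s]
  have h4 : 0 ≤ s ^ 2 / ((1 + s ^ 2) * hh s) := by positivity
  exact ⟨by linarith, by linarith⟩

theorem deriv_sq_le {s : ℝ} (hs : 5 < s ^ 2) :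
    (deriv Ps s) ^ 2 ≤ 8 * (1 + Real.log (s ^ 2)) ∧ (deriv Ps s) ^ 2 * s ^ 2 ≤ 4 * Ps s ^ 2 := by
  obtain ⟨h1, h2⟩ := deriv_le hs
  have h3 : (deriv Ps s) ^ 2 ≤ 4 * hh s ^ 2 := by
    have := pow_le_pow_left₀ h1 h2 2
    rw [mul_pow] at this
    linarith
  refine ⟨?_, ?_⟩
  · rw [hh_sq] at h3
    have h4 : Real.log (1 + s ^ 2) ≤ Real.log (2 * s ^ 2) :=
      Real.log_le_log (by positivity) (by linarith)
    rw [Real.log_mul (by norm_num) (by linarith)] at h4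
    have h5 := Real.log_two_lt_d9
    have h6 : 0 ≤ Real.log (s ^ 2) := Real.log_nonneg (by linarith)
    linarith
  · rw [Ps_big hs.le, mul_pow]
    have := mul_le_mul_of_nonneg_right h3 (sq_nonneg s)
    linarith

theorem bound9 : ∃ B : ℝ, 8 ≤ B ∧ ∀ s : ℝ, s ^ 2 ≤ 9 → (deriv Ps s) ^ 2 ≤ B := by
  have hd : Continuous (deriv Ps) := Ps_cd.continuous_deriv (by simp)
  obtain ⟨B1, hB1⟩ := (isCompact_Icc (a := (-3:ℝ)) (b := 3)).exists_bound_of_continuousOn
    (f := fun y => (deriv Ps y) ^ 2) (by fun_prop)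
  refine ⟨max B1 8, le_max_right _ _, fun s hs => ?_⟩
  have h1 : |s| ≤ 3 := abs_le_of_sq_le_sq (by linarith) (by norm_num)
  have h2 := hB1 s (abs_le.mp h1)
  rw [Real.norm_eq_abs] at h2
  exact (le_abs_self _).trans (h2.trans (le_max_left _ _))

/-- the pointwise comparison -/
theorem ptw2 {r : ℝ} (hr : 0 ≤ r) :
    r ^ 2 * Real.log (r ^ 2) - r ^ 2 + 1 ≤ 6 * (r - 1) ^ 2 + Ps r ^ 2 := by
  rcases lt_or_ge (r ^ 2) 5 with h | h
  · have hlog2 : Real.log (r ^ 2) = 2 * Real.log r := by rw [Real.log_pow]; push_cast; ring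
    have h1 : r ^ 2 * Real.log (r ^ 2) ≤ 2 * r ^ 2 * (r - 1) := by
      rw [hlog2]
      rcases hr.eq_or_lt with h0 | h0
      · rw [← h0]; simp
      · have h2 := Real.log_le_sub_one_of_pos h0
        have h3 := mul_le_mul_of_nonneg_left h2 (show 0 ≤ 2 * r ^ 2 by positivity)
        linarith
    have h2 : 2 * r ^ 2 * (r - 1) - r ^ 2 + 1 = (r - 1) ^ 2 * (2 * r + 1) := by ring
    have hr3 : r ≤ 5 / 2 := by nlinarith
    have h3 : (r - 1) ^ 2 * (2 * r + 1) ≤ (r - 1) ^ 2 * 6 :=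
      mul_le_mul_of_nonneg_left (by linarith) (sq_nonneg _)
    have h4 := sq_nonneg (Ps r)
    linarith
  · rw [Ps_big h, mul_pow, hh_sq]
    have h1 : Real.log (r ^ 2) ≤ Real.log (1 + r ^ 2) :=
      Real.log_le_log (by linarith) (by linarith)
    have h2 := mul_le_mul_of_nonneg_left h1 (sq_nonneg r)
    have h3 := sq_nonneg (r - 1)
    nlinarith

variable {n : ℕ} {μ : Measure (EuclideanSpace ℝ (Fin n))} [IsProbabilityMeasure μ] {κ : ℝ}

/-- the weight: `1`, plus `log⁺ (f² / Q)` where `f² < A |Df|²` -/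
noncomputable def wt (f : EuclideanSpace ℝ (Fin n) → ℝ) (A Q : ℝ)
    (x : EuclideanSpace ℝ (Fin n)) : ℝ :=
  1 + if f x ^ 2 < A * ‖gradient f x‖ ^ 2 then max 0 (Real.log (f x ^ 2 / Q)) else 0

theorem one_le_wt (f : EuclideanSpace ℝ (Fin n) → ℝ) (A Q : ℝ) (x : EuclideanSpace ℝ (Fin n)) :
    1 ≤ wt f A Q x := by
  unfold wt
  split_ifs with h
  · have := le_max_left 0 (Real.log (f x ^ 2 / Q)); linarith
  · linarith

theorem wt_mono (f : EuclideanSpace ℝ (Fin n) → ℝ) {A A' : ℝ} (hA : A ≤ A') (Q : ℝ)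
    (x : EuclideanSpace ℝ (Fin n)) : wt f A Q x ≤ wt f A' Q x := by
  unfold wt
  have h0 := le_max_left 0 (Real.log (f x ^ 2 / Q))
  split_ifs with h h' h'
  · exact le_refl _
  · exact absurd (h.trans_le (mul_le_mul_of_nonneg_right hA (sq_nonneg _))) h'
  · linarith
  · exact le_refl _

theorem int_wt {f : EuclideanSpace ℝ (Fin n) → ℝ} (hf : ContDiff ℝ ∞ f)
    (hc : HasCompactSupport f) (A Q : ℝ) :
    Integrable (fun x => wt f A Q x * ‖gradient f x‖ ^ 2) μ := by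
  obtain ⟨M, hM0, hM⟩ := exists_bd hf.continuous hc
  have i1 : Integrable (fun x => (1 + max 0 (Real.log (M ^ 2 / |Q|))) * ‖gradient f x‖ ^ 2) μ := by
    have := int_comp_grad (μ := μ) hf hc (φ := fun _ => 1 + max 0 (Real.log (M ^ 2 / |Q|)))
      continuous_const
    exact this
  have m1 : Measurable fun x => ‖gradient f x‖ ^ 2 := ((grad_cont hf).pow 2).measurable
  have m2 : Measurable fun x => f x ^ 2 := (hf.continuous.pow 2).measurable
  have m3 : Measurable (wt f A Q) := by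
    unfold wt
    refine measurable_const.add (Measurable.ite (measurableSet_lt m2 (m1.const_mul A)) ?_
      measurable_const)
    exact measurable_const.max (Real.measurable_log.comp (m2.div_const Q))
  refine i1.mono' (m3.mul m1).aestronglyMeasurable (Eventually.of_forall fun x => ?_)
  have h1 := one_le_wt f A Q x
  rw [Real.norm_eq_abs, abs_of_nonneg (by positivity)]
  refine mul_le_mul_of_nonneg_right ?_ (sq_nonneg _)
  unfold wt
  have h0 := le_max_left 0 (Real.log (M ^ 2 / |Q|))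
  split_ifs with h
  · have h2 : Real.log (f x ^ 2 / Q) ≤ max 0 (Real.log (M ^ 2 / |Q|)) := by
      rw [← Real.log_abs, abs_div, abs_of_nonneg (sq_nonneg (f x))]
      rcases (div_nonneg (sq_nonneg (f x)) (abs_nonneg Q)).eq_or_lt with h3 | h3
      · rw [← h3, Real.log_zero]; exact h0
      · refine (Real.log_le_log h3 ?_).trans (le_max_right _ _)
        refine div_le_div_of_nonneg_right ?_ (abs_nonneg Q)
        have := hM x
        rw [← sq_abs]
        exact pow_le_pow_left₀ (abs_nonneg _) this 2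
    have h4 : max 0 (Real.log (f x ^ 2 / Q)) ≤ max 0 (Real.log (M ^ 2 / |Q|)) := max_le h0 h2
    linarith
  · linarith

/-- the high part: the square integral of `Ps (f / N)` -/
theorem high (hP : ∀ u : EuclideanSpace ℝ (Fin n) → ℝ, ContDiff ℝ ∞ u → HasCompactSupport u →
      (∫ x, u x ^ 2 ∂μ) - (∫ x, u x ∂μ) ^ 2 ≤ κ * ∫ x, ‖gradient u x‖ ^ 2 ∂μ)
    (hκ : 0 ≤ κ) {B : ℝ} (hB : 8 ≤ B) (hBd : ∀ s : ℝ, s ^ 2 ≤ 9 → (deriv Ps s) ^ 2 ≤ B)
    {f : EuclideanSpace ℝ (Fin n) → ℝ} (hf : ContDiff ℝ ∞ f) (hc : HasCompactSupport f)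
    {k Q : ℝ} (hk : k ^ 2 * Q = 1) (hQ0 : 0 < Q) (hQ : Q = ∫ x, f x ^ 2 ∂μ) :
    ∫ x, Ps (k * f x) ^ 2 ∂μ ≤
      2 * (B * κ * k ^ 2 * ∫ x, wt f (16 * κ) Q x * ‖gradient f x‖ ^ 2 ∂μ) := by
  have hkk : k ^ 2 = 1 / Q := by field_simp; exact hk
  have hφ : ContDiff ℝ ∞ fun s : ℝ => Ps (k * s) := by
    have : ContDiff ℝ ∞ fun s : ℝ => k * s := by fun_prop
    exact Ps_cd.comp this
  have hder : ∀ s : ℝ, deriv (fun s : ℝ => Ps (k * s)) s = k * deriv Ps (k * s) := by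
    intro s
    have h1 : HasDerivAt Ps (deriv Ps (k * s)) (k * s) :=
      (Ps_cd.differentiable (by simp)).differentiableAt.hasDerivAt
    have h2 : HasDerivAt (fun s : ℝ => k * s) k s := by
      simpa using (hasDerivAt_id s).const_mul k
    have h3 := (h1.comp s h2).deriv
    have h4 : deriv (fun s : ℝ => Ps (k * s)) s = deriv Ps (k * s) * k := h3
    rw [h4]; ring
  have hp := poin_comp hP hf hc hφ
  have iu2 : Integrable (fun x => Ps (k * f x) ^ 2) μ :=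
    int_comp hf.continuous hc (φ := fun s => Ps (k * s) ^ 2) (hφ.continuous.pow 2)
  have if2 : Integrable (fun x => f x ^ 2) μ :=
    int_comp hf.continuous hc (φ := fun s => s ^ 2) (by fun_prop)
  obtain ⟨U, hU⟩ : ∃ U, U = ∫ x, Ps (k * f x) ^ 2 ∂μ := ⟨_, rfl⟩
  have hU0 : 0 ≤ U := by rw [hU]; exact integral_nonneg fun x => sq_nonneg _
  -- the mean
  have hmean : (∫ x, Ps (k * f x) ∂μ) ^ 2 ≤ U / 4 := by
    have h1 : |∫ x, Ps (k * f x) ∂μ| ≤ ∫ x, |Ps (k * f x)| ∂μ := abs_integral_le_integral_abs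
    have i1 : Integrable (fun x => |Ps (k * f x)| * |k * f x|) μ :=
      int_comp hf.continuous hc (φ := fun s => |Ps (k * s)| * |k * s|)
        ((hφ.continuous.abs).mul (by fun_prop))
    have i2 : Integrable (fun x => |Ps (k * f x)|) μ :=
      int_comp hf.continuous hc (φ := fun s => |Ps (k * s)|) hφ.continuous.abs
    have h2 : 2 * ∫ x, |Ps (k * f x)| ∂μ ≤ ∫ x, |Ps (k * f x)| * |k * f x| ∂μ := by
      rw [← integral_const_mul]
      refine integral_mono (i2.const_mul 2) i1 fun x => ?_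
      show 2 * |Ps (k * f x)| ≤ |Ps (k * f x)| * |k * f x|
      rcases le_or_gt ((k * f x) ^ 2) 4 with h | h
      · rw [Ps_small h]; simp
      · have h3 : 2 ≤ |k * f x| := by
          have : (2:ℝ) ^ 2 ≤ |k * f x| ^ 2 := by rw [sq_abs]; linarith
          exact le_of_sq_le_sq this (abs_nonneg _)
        have := mul_le_mul_of_nonneg_left h3 (abs_nonneg (Ps (k * f x)))
        linarith
    have j1 : Integrable (fun x => |Ps (k * f x)| ^ 2) μ := by
      simpa only [sq_abs] using iu2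
    have j2 : Integrable (fun x => |k * f x| ^ 2) μ := by
      have : Integrable (fun x => k ^ 2 * f x ^ 2) μ := if2.const_mul _
      simpa only [sq_abs, mul_pow] using this
    have h3 := cs j1 j2 i1
    have h4 : ∫ x, |k * f x| ^ 2 ∂μ = 1 := by
      have : ∀ x, |k * f x| ^ 2 = k ^ 2 * f x ^ 2 := fun x => by rw [sq_abs, mul_pow]
      rw [integral_congr_ae (Eventually.of_forall this), integral_const_mul, ← hQ, hk]
    have h5 : ∫ x, |Ps (k * f x)| ^ 2 ∂μ = U := by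
      rw [hU]; exact integral_congr_ae (Eventually.of_forall fun x => sq_abs _)
    rw [h4, h5, mul_one] at h3
    have h6 : 0 ≤ ∫ x, |Ps (k * f x)| ∂μ := integral_nonneg fun x => abs_nonneg _
    have h7 : (∫ x, Ps (k * f x) ∂μ) ^ 2 ≤ (∫ x, |Ps (k * f x)| ∂μ) ^ 2 := by
      rw [← sq_abs]; exact pow_le_pow_left₀ (abs_nonneg _) h1 2
    have h8 : (2 * ∫ x, |Ps (k * f x)| ∂μ) ^ 2 ≤ (∫ x, |Ps (k * f x)| * |k * f x| ∂μ) ^ 2 :=
      pow_le_pow_left₀ (by linarith) h2 2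
    rw [mul_pow] at h8
    linarith
  -- the energy
  have hen : κ * ∫ x, (deriv (fun s : ℝ => Ps (k * s)) (f x)) ^ 2 * ‖gradient f x‖ ^ 2 ∂μ ≤
      B * κ * k ^ 2 * (∫ x, wt f (16 * κ) Q x * ‖gradient f x‖ ^ 2 ∂μ) + U / 4 := by
    have i1 : Integrable (fun x => (deriv (fun s : ℝ => Ps (k * s)) (f x)) ^ 2 *
        ‖gradient f x‖ ^ 2) μ :=
      int_comp_grad hf hc (φ := fun s => (deriv (fun s : ℝ => Ps (k * s)) s) ^ 2)
        ((hφ.continuous_deriv (by simp)).pow 2)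
    have i2 : Integrable (fun x => B * κ * k ^ 2 * (wt f (16 * κ) Q x * ‖gradient f x‖ ^ 2)) μ :=
      (int_wt hf hc _ _).const_mul _
    have i3 : Integrable (fun x => (1 / 4) * Ps (k * f x) ^ 2) μ := iu2.const_mul _
    have h1 : ∫ x, κ * ((deriv (fun s : ℝ => Ps (k * s)) (f x)) ^ 2 * ‖gradient f x‖ ^ 2) ∂μ ≤
        ∫ x, (B * κ * k ^ 2 * (wt f (16 * κ) Q x * ‖gradient f x‖ ^ 2) +
          (1 / 4) * Ps (k * f x) ^ 2) ∂μ := by
      refine integral_mono (i1.const_mul κ) (i2.add i3) fun x => ?_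
      show κ * ((deriv (fun s : ℝ => Ps (k * s)) (f x)) ^ 2 * ‖gradient f x‖ ^ 2) ≤
        B * κ * k ^ 2 * (wt f (16 * κ) Q x * ‖gradient f x‖ ^ 2) + (1 / 4) * Ps (k * f x) ^ 2
      rw [hder]
      obtain ⟨g, hg⟩ : ∃ g, g = ‖gradient f x‖ ^ 2 := ⟨_, rfl⟩
      have hg0 : 0 ≤ g := by rw [hg]; positivity
      obtain ⟨s, hs⟩ : ∃ s, s = k * f x := ⟨_, rfl⟩
      have hsf : s ^ 2 = f x ^ 2 / Q := by rw [hs, mul_pow, hkk]; ring
      have hw1 := one_le_wt f (16 * κ) Q x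
      have hps := sq_nonneg (Ps s)
      rw [← hg, ← hs, mul_pow]
      have hb0 : 0 ≤ κ * k ^ 2 * g := by positivity
      rcases le_or_gt (s ^ 2) 9 with h9 | h9
      · have h2 := hBd s h9
        have h3 : κ * (k ^ 2 * deriv Ps s ^ 2 * g) ≤ B * (κ * k ^ 2 * g) := by
          have := mul_le_mul_of_nonneg_right h2 hb0
          calc κ * (k ^ 2 * deriv Ps s ^ 2 * g) = deriv Ps s ^ 2 * (κ * k ^ 2 * g) := by ring
            _ ≤ _ := this
        have h4 : B * (κ * k ^ 2 * g) ≤ B * κ * k ^ 2 * (wt f (16 * κ) Q x * g) := by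
          have h5 : 0 ≤ B * (κ * k ^ 2 * g) := by positivity
          have h6 := mul_le_mul_of_nonneg_left hw1 h5
          calc B * (κ * k ^ 2 * g) = B * (κ * k ^ 2 * g) * 1 := by ring
            _ ≤ B * (κ * k ^ 2 * g) * wt f (16 * κ) Q x := h6
            _ = _ := by ring
        linarith
      · obtain ⟨d1, d2⟩ := deriv_sq_le (s := s) (by linarith)
        by_cases hst : f x ^ 2 < 16 * κ * ‖gradient f x‖ ^ 2
        · -- steep
          have hw : 1 + Real.log (s ^ 2) ≤ wt f (16 * κ) Q x := by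
            unfold wt
            rw [if_pos hst, hsf]
            have := le_max_right 0 (Real.log (f x ^ 2 / Q))
            linarith
          have h3 : κ * (k ^ 2 * deriv Ps s ^ 2 * g) ≤ B * κ * k ^ 2 * (wt f (16 * κ) Q x * g) := by
            have h4 : deriv Ps s ^ 2 ≤ B * wt f (16 * κ) Q x := by
              have h5 : 0 ≤ wt f (16 * κ) Q x := by linarith
              nlinarith
            have := mul_le_mul_of_nonneg_right h4 hb0
            calc κ * (k ^ 2 * deriv Ps s ^ 2 * g) = deriv Ps s ^ 2 * (κ * k ^ 2 * g) := by ring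
              _ ≤ B * wt f (16 * κ) Q x * (κ * k ^ 2 * g) := this
              _ = _ := by ring
          linarith
        · -- not steep
          have hst' : 16 * κ * g ≤ f x ^ 2 := by rw [hg]; exact not_lt.mp hst
          have h3 : κ * (k ^ 2 * deriv Ps s ^ 2 * g) ≤ (1 / 4) * Ps s ^ 2 := by
            have h4 : κ * (k ^ 2 * deriv Ps s ^ 2 * g) * 16 ≤ deriv Ps s ^ 2 * s ^ 2 := by
              have h5 : 0 ≤ k ^ 2 * deriv Ps s ^ 2 := by positivity
              have h6 := mul_le_mul_of_nonneg_left hst' h5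
              calc κ * (k ^ 2 * deriv Ps s ^ 2 * g) * 16 =
                  k ^ 2 * deriv Ps s ^ 2 * (16 * κ * g) := by ring
                _ ≤ k ^ 2 * deriv Ps s ^ 2 * f x ^ 2 := h6
                _ = deriv Ps s ^ 2 * s ^ 2 := by rw [hs]; ring
            linarith
          have h7 : 0 ≤ B * κ * k ^ 2 * (wt f (16 * κ) Q x * g) := by
            have h5 : 0 ≤ wt f (16 * κ) Q x := by linarith
            positivity
          linarith
    rw [integral_const_mul, integral_add i2 i3, integral_const_mul, integral_const_mul, ← hU] at h1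
    linarith
  rw [← hU] at hp ⊢
  linarith

/-- **The weighted inequality** from a Poincaré inequality. -/
theorem main {B : ℝ} (hB : 8 ≤ B) (hBd : ∀ s : ℝ, s ^ 2 ≤ 9 → (deriv Ps s) ^ 2 ≤ B)
    (hP : ∀ u : EuclideanSpace ℝ (Fin n) → ℝ, ContDiff ℝ ∞ u → HasCompactSupport u →
      (∫ x, u x ^ 2 ∂μ) - (∫ x, u x ∂μ) ^ 2 ≤ κ * ∫ x, ‖gradient u x‖ ^ 2 ∂μ)
    (hκ : 0 ≤ κ) {f : EuclideanSpace ℝ (Fin n) → ℝ} (hf : ContDiff ℝ ∞ f)
    (hc : HasCompactSupport f) :
    Entropy μ (fun x => f x ^ 2) ≤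
      (12 + 2 * B) * κ * ∫ x, wt f (16 * κ) (∫ y, f y ^ 2 ∂μ) x * ‖gradient f x‖ ^ 2 ∂μ := by
  obtain ⟨Q, hQ⟩ : ∃ Q, Q = ∫ x, f x ^ 2 ∂μ := ⟨_, rfl⟩
  have hfc := hf.continuous
  have i1 : Integrable (fun x => f x ^ 2) μ :=
    int_comp hfc hc (φ := fun s => s ^ 2) (by fun_prop)
  rw [← hQ]
  have hW0 : ∫ x, ‖gradient f x‖ ^ 2 ∂μ ≤
      ∫ x, wt f (16 * κ) Q x * ‖gradient f x‖ ^ 2 ∂μ := by
    have j1 : Integrable (fun x => (1:ℝ) * ‖gradient f x‖ ^ 2) μ :=
      int_comp_grad (μ := μ) hf hc (φ := fun _ => (1:ℝ)) continuous_const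
    have j2 : Integrable (fun x => ‖gradient f x‖ ^ 2) μ := by simpa only [one_mul] using j1
    refine integral_mono j2 (int_wt hf hc _ _) fun x => ?_
    show ‖gradient f x‖ ^ 2 ≤ wt f (16 * κ) Q x * ‖gradient f x‖ ^ 2
    have := mul_le_mul_of_nonneg_right (one_le_wt f (16 * κ) Q x) (sq_nonneg ‖gradient f x‖)
    linarith
  have hI : 0 ≤ ∫ x, ‖gradient f x‖ ^ 2 ∂μ := integral_nonneg fun x => by positivity
  have hQn : 0 ≤ Q := by rw [hQ]; exact integral_nonneg fun x => sq_nonneg _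
  rcases hQn.eq_or_lt with hQ0 | hQ0
  · have h1 : (fun x => f x ^ 2) =ᵐ[μ] 0 := by
      rw [← integral_eq_zero_iff_of_nonneg (fun x => sq_nonneg (f x)) i1]
      rw [← hQ, ← hQ0]
    have h2 : ∫ x, f x ^ 2 * Real.log (f x ^ 2) ∂μ = 0 := by
      have : (fun x => f x ^ 2 * Real.log (f x ^ 2)) =ᵐ[μ] 0 := by
        filter_upwards [h1] with x hx
        have hx' : f x ^ 2 = 0 := hx
        show f x ^ 2 * Real.log (f x ^ 2) = 0
        rw [hx', zero_mul]
      rw [integral_congr_ae this]; simp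
    have h3 : Entropy μ (fun x => f x ^ 2) = 0 := by
      unfold Entropy
      rw [h2, ← hQ, ← hQ0]; simp
    rw [h3]
    have h4 : 0 ≤ (12 + 2 * B) * κ := by positivity
    exact mul_nonneg h4 (hI.trans hW0)
  have hs : 0 < √Q := Real.sqrt_pos.mpr hQ0
  have hsq : √Q ^ 2 = Q := Real.sq_sqrt hQ0.le
  obtain ⟨k, hk⟩ : ∃ k, k = 1 / √Q := ⟨_, rfl⟩
  have hkQ : k ^ 2 * Q = 1 := by rw [hk, div_pow, hsq]; field_simp
  have hhi := high hP hκ hB hBd hf hc hkQ hQ0 hQ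
  have hA := abs_var hfc hc hQ hQ0
  have hPf := hP f hf hc
  have hphi : Continuous fun s : ℝ => Ps (k * s) := Ps_cd.continuous.comp (by fun_prop)
  have hcmp : ∫ x, ((|f x| / √Q) ^ 2 * Real.log ((|f x| / √Q) ^ 2) - (|f x| / √Q) ^ 2 + 1) ∂μ ≤
      6 * (∫ x, (|f x| / √Q - 1) ^ 2 ∂μ) + ∫ x, Ps (k * f x) ^ 2 ∂μ := by
    have j2 : Integrable (fun x => (|f x| / √Q - 1) ^ 2) μ :=
      int_comp hfc hc (φ := fun s => (|s| / √Q - 1) ^ 2) (by fun_prop)
    have j3 : Integrable (fun x => (|f x| / √Q) ^ 2 * Real.log ((|f x| / √Q) ^ 2) -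
        (|f x| / √Q) ^ 2 + 1) μ := by
      have c1 : Continuous fun s : ℝ => (|s| / √Q) ^ 2 := by fun_prop
      have c2 : Continuous fun s : ℝ => (|s| / √Q) ^ 2 * Real.log ((|s| / √Q) ^ 2) :=
        Real.continuous_mul_log.comp c1
      exact int_comp hfc hc (φ := fun s => (|s| / √Q) ^ 2 * Real.log ((|s| / √Q) ^ 2) -
        (|s| / √Q) ^ 2 + 1) ((c2.sub c1).add continuous_const)
    have j4 : Integrable (fun x => Ps (k * f x) ^ 2) μ :=
      int_comp hfc hc (φ := fun s => Ps (k * s) ^ 2) (hphi.pow 2)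
    have k1 : Integrable (fun x => 6 * (|f x| / √Q - 1) ^ 2) μ := j2.const_mul _
    rw [← integral_const_mul, ← integral_add k1 j4]
    refine integral_mono j3 (k1.add j4) fun x => ?_
    have h1 := ptw2 (r := |f x| / √Q) (by positivity)
    have h2 : Ps (k * f x) ^ 2 = Ps (|f x| / √Q) ^ 2 := by
      rw [Ps_even (k * f x), hk, abs_mul, abs_of_pos (show 0 < 1 / √Q by positivity)]
      congr 2
      ring
    show (|f x| / √Q) ^ 2 * Real.log ((|f x| / √Q) ^ 2) - (|f x| / √Q) ^ 2 + 1 ≤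
      6 * (|f x| / √Q - 1) ^ 2 + Ps (k * f x) ^ 2
    rw [h2]
    exact h1
  rw [ent_norm hfc hc hQ hQ0]
  have e1 := mul_le_mul_of_nonneg_left hcmp hQ0.le
  refine e1.trans ?_
  obtain ⟨W, hW⟩ : ∃ W, W = ∫ x, wt f (16 * κ) Q x * ‖gradient f x‖ ^ 2 ∂μ := ⟨_, rfl⟩
  obtain ⟨I, hIe⟩ : ∃ I, I = ∫ x, ‖gradient f x‖ ^ 2 ∂μ := ⟨_, rfl⟩
  rw [← hW] at hhi hW0 ⊢
  rw [← hIe] at hPf hW0 hI
  have e2 : Q * ∫ x, Ps (k * f x) ^ 2 ∂μ ≤ 2 * B * κ * W := by
    have := mul_le_mul_of_nonneg_left hhi hQ0.le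
    have h5 : Q * (2 * (B * κ * k ^ 2 * W)) = 2 * B * κ * W * (k ^ 2 * Q) := by ring
    rw [h5, hkQ, mul_one] at this
    exact this
  have e3 : Q * (6 * ∫ x, (|f x| / √Q - 1) ^ 2 ∂μ) ≤ 12 * κ * W := by
    have h6 : κ * I ≤ κ * W := mul_le_mul_of_nonneg_left hW0 hκ
    have h7 : Q * (6 * ∫ x, (|f x| / √Q - 1) ^ 2 ∂μ) =
        6 * (Q * ∫ x, (|f x| / √Q - 1) ^ 2 ∂μ) := by ring
    rw [h7]
    linarith
  rw [mul_add]
  linarith

/-- **The block.** `A` is absolute. The Poincaré inequality with constant `κ` implies a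
logarithmic Sobolev inequality for all `f ∈ C_c^∞`, with the weight `1 + log⁺ (f² / ∫ f²)` at the
points where `f² < A κ |Df|²` and the weight `1` at all other points. -/
theorem weight_block : ∃ A : ℝ, 1 ≤ A ∧
    ∀ (n : ℕ) (μ : Measure (EuclideanSpace ℝ (Fin n))) [IsProbabilityMeasure μ] (κ : ℝ), 0 ≤ κ →
      (∀ u : EuclideanSpace ℝ (Fin n) → ℝ, ContDiff ℝ ∞ u → HasCompactSupport u →
        (∫ x, u x ^ 2 ∂μ) - (∫ x, u x ∂μ) ^ 2 ≤ κ * ∫ x, ‖gradient u x‖ ^ 2 ∂μ) →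
      ∀ f : EuclideanSpace ℝ (Fin n) → ℝ, ContDiff ℝ ∞ f → HasCompactSupport f →
        Entropy μ (fun x => f x ^ 2) ≤ A * κ * ∫ x,
          (1 + if f x ^ 2 < A * κ * ‖gradient f x‖ ^ 2 then
            max 0 (Real.log (f x ^ 2 / ∫ y, f y ^ 2 ∂μ)) else 0) * ‖gradient f x‖ ^ 2 ∂μ := by
  obtain ⟨B, hB, hBd⟩ := bound9
  refine ⟨12 + 2 * B, by linarith, fun n μ _ κ hκ hP f hf hc => ?_⟩
  refine (main hB hBd hP hκ hf hc).trans ?_
  refine mul_le_mul_of_nonneg_left ?_ (by positivity)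
  refine integral_mono (int_wt hf hc _ _) (int_wt hf hc ((12 + 2 * B) * κ) _) fun x => ?_
  exact mul_le_mul_of_nonneg_right
    (wt_mono f (mul_le_mul_of_nonneg_right (by linarith) hκ) _ x) (sq_nonneg _)

end Vale.Agent.P245.H882
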